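import Vale.Agent.P235.H105.PlaneCycle

/-!
Antisymmetric functions on the darts of a plane map with all face sums zero are differences of
functions on the vertices (over every field, and over the integers).
-/

set_option linter.unusedSectionVars false

namespace Vale.Agent.P235.AP145

open Finset SimpleGraph Module

variable {V : Type} {G : SimpleGraph V} {K : Type} [Field K]

/-- antisymmetric functions on the darts -/
def antiSub (K : Type) [Field K] (G : SimpleGraph V) : Submodule K (G.Dart → K) where
  carrier := {z | ∀ d : G.Dart, z d.symm = -z d}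
  add_mem' := by
    intro a b ha hb d
    show a d.symm + b d.symm = -(a d + b d)
    rw [ha d, hb d]
    ring
  zero_mem' := fun _ => neg_zero.symm
  smul_mem' := by
    intro c a ha d
    show c * a d.symm = -(c * a d)
    rw [ha d]
    ring

theorem finrank_antiSub [Finite V] : finrank K (antiSub K G) ≤ Nat.card G.edgeSet := by
  classical
  have := Fintype.ofFinite V
  choose c hc using exists_dart (G := G)
  let L : antiSub K G →ₗ[K] (G.edgeSet → K) :=
    { toFun := fun z e => z.1 (c e)
      map_add' := fun _ _ => rfl
      map_smul' := fun _ _ => rfl }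
  have hL : Function.Injective L := by
    rw [← LinearMap.ker_eq_bot, LinearMap.ker_eq_bot']
    intro z hz
    ext d
    have h1 : z.1 (c ⟨d.edge, d.edge_mem⟩) = 0 := congrFun hz ⟨d.edge, d.edge_mem⟩
    have h2 := hc ⟨d.edge, d.edge_mem⟩
    rcases dart_edge_eq_iff _ _ |>.1 h2 with h3 | h3
    · rw [h3] at h1
      exact h1
    · rw [h3, z.2 d] at h1
      exact neg_eq_zero.1 h1
  have h := LinearMap.finrank_le_finrank_of_injective hL
  rwa [finrank_fintype_fun_eq_card, ← Nat.card_eq_fintype_card] at h

/-- the difference of a function on the vertices -/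
def dW (K : Type) [Field K] (G : SimpleGraph V) : (V → K) →ₗ[K] antiSub K G where
  toFun W := ⟨fun d => W d.snd - W d.fst, fun d => by
    show W d.symm.snd - W d.symm.fst = -(W d.snd - W d.fst)
    rw [neg_sub]
    rfl⟩
  map_add' a b := by
    ext d
    show (a d.snd + b d.snd) - (a d.fst + b d.fst) = (a d.snd - a d.fst) + (b d.snd - b d.fst)
    ring
  map_smul' c a := by
    ext d
    show c * a d.snd - c * a d.fst = c * (a d.snd - a d.fst)
    ring

theorem dW_apply (W : V → K) (d : G.Dart) : (dW K G W).1 d = W d.snd - W d.fst := rfl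

theorem card_le_dW [Fintype V] (hc : G.Connected) :
    Fintype.card V ≤ finrank K (LinearMap.range (dW K G)) + 1 := by
  have h1 := LinearMap.finrank_range_add_finrank_ker (dW K G)
  rw [finrank_fintype_fun_eq_card] at h1
  have h2 : finrank K (LinearMap.ker (dW K G)) ≤ 1 := by
    have h3 : LinearMap.ker (dW K G) ≤ Submodule.span K {(fun _ => 1 : V → K)} := by
      intro W hW
      rw [LinearMap.mem_ker] at hW
      have h4 : ∀ a b, G.Adj a b → W a = W b := fun a b hab => by
        have h5 : W b - W a = 0 := congrFun (congrArg Subtype.val hW) (⟨(a, b), hab⟩ : G.Dart)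
        exact (sub_eq_zero.1 h5).symm
      obtain ⟨v0⟩ := hc.nonempty
      have h5 : ∀ v, W v = W v0 := by
        intro v
        obtain ⟨p⟩ := hc.preconnected v v0
        induction p with
        | nil => rfl
        | @cons a b c hab _ ih => rw [h4 a b hab, ih]
      rw [Submodule.mem_span_singleton]
      refine ⟨W v0, ?_⟩
      ext v
      show W v0 * 1 = W v
      rw [mul_one]
      exact (h5 v).symm
    exact (Submodule.finrank_mono h3).trans ((finrank_span_le_card _).trans (by simp))
  omega

open Classical in
/-- **Closed = exact** on a plane map, over a field. -/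
theorem closed_exact [Fintype G.Dart] [Finite V] (hc : G.Connected) {σ : Equiv.Perm G.Dart}
    (hσ : PlaneMap G σ) (z : G.Dart → K) (hz : ∀ d : G.Dart, z d.symm = -z d)
    (hf : ∀ d0 : G.Dart, ∑ d with (faceNext σ).SameCycle d0 d, z d = 0) :
    ∃ W : V → K, ∀ d : G.Dart, z d = W d.snd - W d.fst := by
  have := Fintype.ofFinite V
  set F := Quotient (Equiv.Perm.SameCycle.setoid (faceNext σ))
  have : Fintype F := Fintype.ofFinite F
  have hmk : ∀ d, (Quotient.mk _ (faceNext σ d) : F) = Quotient.mk _ d := fun d =>
    Quotient.sound (Equiv.Perm.sameCycle_apply_left.2 (Equiv.Perm.SameCycle.refl _ _))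
  -- the face sums
  let B : antiSub K G →ₗ[K] (F → K) :=
    { toFun := fun z f => ∑ d : G.Dart with (Quotient.mk _ d : F) = f, z.1 d
      map_add' := fun a b => by
        ext f
        exact Finset.sum_add_distrib
      map_smul' := fun c a => by
        ext f
        exact (Finset.mul_sum _ _ _).symm }
  have hDB : LinearMap.range (dW K G) ≤ LinearMap.ker B := by
    rintro _ ⟨W, rfl⟩
    rw [LinearMap.mem_ker]
    ext f
    show ∑ d : G.Dart with (Quotient.mk _ d : F) = f, (W d.snd - W d.fst) = 0
    rw [Finset.sum_sub_distrib, sub_eq_zero]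
    refine Finset.sum_bij (fun (d : G.Dart) _ => faceNext σ d) ?_ ?_ ?_ ?_
    · intro d hd
      rw [Finset.mem_filter] at hd ⊢
      exact ⟨Finset.mem_univ _, (hmk d).trans hd.2⟩
    · intro a _ b _ hab
      exact (faceNext σ).injective hab
    · intro b hb
      refine ⟨(faceNext σ)⁻¹ b, ?_, Equiv.apply_symm_apply _ _⟩
      rw [Finset.mem_filter]
      refine ⟨Finset.mem_univ _, ?_⟩
      rw [← hmk, show (faceNext σ) ((faceNext σ)⁻¹ b) = b from Equiv.apply_symm_apply _ _]
      exact (Finset.mem_filter.1 hb).2
    · intro d _
      have h1 : (faceNext σ d).fst = d.snd := by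
        rw [faceNext_apply, hσ.fst]
        rfl
      rw [h1]
  -- the rank of the face sums
  have hrank : Fintype.card F ≤ finrank K (LinearMap.range B) + 1 := by
    by_cases hF : Nonempty F
    · obtain ⟨f0⟩ := hF
      set R := LinearMap.range B ⊔ Submodule.span K {(Pi.single f0 1 : F → K)}
      have h1 : ∀ d : G.Dart, (Pi.single (Quotient.mk _ d : F) 1 : F → K) -
          Pi.single (Quotient.mk _ d.symm : F) 1 ∈ LinearMap.range B := by
        intro d
        have hs : ∀ e : G.Dart, (e.symm = d ↔ e = d.symm) := fun e => by
          constructor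
          · intro h1; rw [← h1, Dart.symm_symm]
          · intro h1; rw [h1, Dart.symm_symm]
        have hs' : ∀ e : G.Dart, (e.symm = d.symm ↔ e = d) := fun e => by
          rw [← hs, Dart.symm_symm]
        refine ⟨⟨fun e => (if e = d then 1 else 0) - (if e = d.symm then 1 else 0), ?_⟩, ?_⟩
        · intro e
          show (if e.symm = d then (1 : K) else 0) - (if e.symm = d.symm then 1 else 0) =
            -((if e = d then 1 else 0) - (if e = d.symm then 1 else 0))
          simp only [hs, hs']
          ring
        · ext f
          show ∑ e : G.Dart with (Quotient.mk _ e : F) = f, ((if e = d then (1 : K) else 0) -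
            (if e = d.symm then 1 else 0)) = _
          rw [Finset.sum_sub_distrib, Finset.sum_ite_eq', Finset.sum_ite_eq']
          simp only [Finset.mem_filter, Finset.mem_univ, true_and, Pi.sub_apply, Pi.single_apply,
            eq_comm]
      have h2 : ∀ d : G.Dart, (Pi.single (Quotient.mk _ d : F) 1 : F → K) ∈ R ↔
          (Pi.single (Quotient.mk _ d.symm : F) 1 : F → K) ∈ R := by
        intro d
        have h3 := Submodule.mem_sup_left (S := LinearMap.range B)
          (T := Submodule.span K {(Pi.single f0 1 : F → K)}) (h1 d)
        constructor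
        · intro h
          have h4 := R.sub_mem h h3
          rwa [sub_sub_cancel] at h4
        · intro h
          have h4 := R.add_mem h3 h
          rwa [sub_add_cancel] at h4
      have h3 : ∀ f : F, (Pi.single f 1 : F → K) ∈ R := by
        intro f
        induction f using Quotient.ind with
        | _ d =>
          induction f0 using Quotient.ind with
          | _ d0 =>
            have h4 := const_of_inv hc hσ.cyc
              (fun e => ((Pi.single (Quotient.mk _ e : F) 1 : F → K) ∈ R : Prop))
              (fun e => by rw [hmk]) (fun e => propext (h2 e).symm) d d0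
            have h4' : ((Pi.single (Quotient.mk _ d : F) 1 : F → K) ∈ R) =
              ((Pi.single (Quotient.mk _ d0 : F) 1 : F → K) ∈ R) := h4
            rw [h4']
            exact Submodule.mem_sup_right (Submodule.mem_span_singleton_self _)
      have h4 : R = ⊤ := by
        rw [Submodule.eq_top_iff']
        intro g
        have h5 : g = ∑ f, g f • (Pi.single f 1 : F → K) := by
          ext w
          rw [Finset.sum_apply, Finset.sum_eq_single w]
          · simp
          · intro b _ hb
            simp [Ne.symm hb]
          · intro hb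
            exact absurd (Finset.mem_univ w) hb
        rw [h5]
        exact R.sum_mem fun f _ => R.smul_mem _ (h3 f)
      have h5 : finrank K R ≤ finrank K (LinearMap.range B) +
          finrank K (Submodule.span K {(Pi.single f0 1 : F → K)}) :=
        Submodule.finrank_add_le_finrank_add_finrank _ _
      have h6 : finrank K (Submodule.span K {(Pi.single f0 1 : F → K)}) ≤ 1 :=
        (finrank_span_le_card _).trans (by simp)
      rw [h4, finrank_top, finrank_fintype_fun_eq_card] at h5
      omega
    · rw [not_nonempty_iff] at hF
      rw [Fintype.card_eq_zero]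
      omega
  have r1 := LinearMap.finrank_range_add_finrank_ker B
  have r2 := finrank_antiSub (K := K) (G := G)
  have r3 := card_le_dW (K := K) hc
  have r5 := hσ.euler
  rw [Nat.card_eq_fintype_card, Nat.card_eq_fintype_card (α := F)] at r5
  have hfin : finrank K (LinearMap.ker B) ≤ finrank K (LinearMap.range (dW K G)) := by
    omega
  have heq := Submodule.eq_of_le_of_finrank_le hDB hfin
  have hzm : (⟨z, hz⟩ : antiSub K G) ∈ LinearMap.ker B := by
    rw [LinearMap.mem_ker]
    ext f
    induction f using Quotient.ind with
    | _ d0 =>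
      show ∑ d : G.Dart with (Quotient.mk _ d : F) = Quotient.mk _ d0, z d = 0
      rw [← hf d0]
      refine Finset.sum_congr (Finset.filter_congr fun d _ => ?_) fun _ _ => rfl
      rw [Quotient.eq]
      exact Equiv.Perm.sameCycle_comm
  rw [← heq] at hzm
  obtain ⟨W, hW⟩ := hzm
  exact ⟨W, fun d => (congrFun (congrArg Subtype.val hW) d).symm⟩

open Classical in
/-- **Closed = exact** on a plane map, over the integers, with a prescribed zero. -/
theorem closed_exact_int [Fintype G.Dart] [Finite V] (hc : G.Connected) {σ : Equiv.Perm G.Dart}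
    (hσ : PlaneMap G σ) (r : V) (z : G.Dart → ℤ) (hz : ∀ d : G.Dart, z d.symm = -z d)
    (hf : ∀ d0 : G.Dart, ∑ d with (faceNext σ).SameCycle d0 d, z d = 0) :
    ∃ W : V → ℤ, W r = 0 ∧ ∀ d : G.Dart, z d = W d.snd - W d.fst := by
  obtain ⟨W, hW⟩ := closed_exact (K := ℚ) hc hσ (fun d => (z d : ℚ))
    (fun d => by rw [hz]; push_cast; rfl) (fun d0 => by
      have h := hf d0
      rw [← Int.cast_sum, h, Int.cast_zero])
  have h1 : ∀ v, ∃ k : ℤ, W v - W r = k := by
    intro v
    obtain ⟨p⟩ := hc.preconnected v r
    induction p with
    | nil => exact ⟨0, by simp⟩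
    | @cons a b c hab _ ih =>
      obtain ⟨k, hk⟩ := ih
      have h2 := hW ⟨(a, b), hab⟩
      refine ⟨k - z ⟨(a, b), hab⟩, ?_⟩
      push_cast
      rw [h2]
      show W a - W c = (k : ℚ) - (W b - W a)
      rw [← hk]
      ring
  choose k hk using h1
  refine ⟨k, ?_, fun d => ?_⟩
  · have := hk r
    rw [sub_self] at this
    exact_mod_cast this.symm
  · have h2 := hW d
    have h3 : (z d : ℚ) = (k d.snd : ℚ) - k d.fst := by
      rw [← hk, ← hk, h2]
      ring
    exact_mod_cast h3

open Classical in
/-- **Closed = exact** over the reals, with a prescribed zero. -/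
theorem closed_exact_real [Fintype G.Dart] [Finite V] (hc : G.Connected) {σ : Equiv.Perm G.Dart}
    (hσ : PlaneMap G σ) (r : V) (z : G.Dart → ℝ) (hz : ∀ d : G.Dart, z d.symm = -z d)
    (hf : ∀ d0 : G.Dart, ∑ d with (faceNext σ).SameCycle d0 d, z d = 0) :
    ∃ W : V → ℝ, W r = 0 ∧ ∀ d : G.Dart, z d = W d.snd - W d.fst := by
  obtain ⟨W, hW⟩ := closed_exact hc hσ z hz hf
  refine ⟨fun v => W v - W r, sub_self _, fun d => ?_⟩
  rw [hW d]
  ring

end Vale.Agent.P235.AP145
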